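import Vale.Agent.P032.H383.Letters
import Vale.Agent.P032.H338.Letters
import Vale.Agent.P032.S5.H80.Anti

/-!
# P032: the lock lemma (343 #11530)

`z` two-pair point with the pairs `{a, b}`, `{c, d}`, `p` at distance one with `T p = {c, d, e, f}`.
A direction with `{a, b}` on `S(z)` and `{e, f}` on `S(p)` at both antipodal points is locked: the
four letters can only change by a simultaneous end of an arc `{a, b}` of `z` and of an arc `{e, f}`
of `p` in the same direction.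
-/

open Set Filter Topology Metric

noncomputable section

namespace Vale.Agent.P032.H561

open Vale.Agent.P032.Six Vale.Agent.P032.S5.H767 Vale.Agent.P032.S5.H122 Vale.Agent.P032.Sweep
  Vale.Agent.P032.H338

variable {U : Fin 6 → Set ℂ} {T : ℂ → Set (Fin 6)}

/-- `P` is available on `S(z)` at the angle `s`: limit of exact `P`-arcs -/
def Av (T : ℂ → Set (Fin 6)) (z : ℂ) (P : Set (Fin 6)) (s : ℝ) : Prop :=
  pt z s ∈ closure (Ex T z P)

theorem Av.sub (h : Irr U T) {z : ℂ} {P : Set (Fin 6)} {s : ℝ} (hs : Av T z P s) :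
    P ⊆ T (pt z s) := sub_of_closure h hs

theorem Av.closed (z : ℂ) (P : Set (Fin 6)) : IsClosed {s | Av T z P s} :=
  isClosed_closure.preimage (continuous_pt z)

theorem Av.of_Lc {z : ℂ} {s : ℝ} (hs : s ∈ Lc T z) : Av T z (T (pt z s)) s :=
  subset_closure (Lc_Ex hs)

theorem Av.of_freq {z : ℂ} {P : Set (Fin 6)} {s c : ℝ}
    (hf : ∃ᶠ v in 𝓝 s, v + c ∈ Lc T z ∧ T (pt z (v + c)) = P) : Av T z P (s + c) := by
  have h1 : Tendsto (fun v : ℝ => v + c) (𝓝 s) (𝓝 (s + c)) := by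
    have : Continuous fun v : ℝ => v + c := by fun_prop
    exact this.tendsto s
  have h2 : ∃ᶠ v in 𝓝 (s + c), Av T z P v := by
    refine h1.frequently (hf.mono fun v hv => ?_)
    have := Av.of_Lc hv.1
    rwa [hv.2] at this
  have h3 := (mem_closure_iff_frequently (s := {s | Av T z P s})).2 h2
  rwa [(Av.closed z P).closure_eq] at h3

theorem Av.per {z : ℂ} {P : Set (Fin 6)} {s : ℝ} : Av T z P (s + 3 + 3) ↔ Av T z P s := by
  unfold Av
  rw [show s + 3 + 3 = s + 6 by ring, pt_six]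

/-- the available palette at an angle of `Lc` -/
theorem Av.eq_of_Lc {z : ℂ} {P : Set (Fin 6)} {s : ℝ} (hs : s ∈ Lc T z) (hP : Av T z P s) :
    T (pt z s) = P := by
  have h1 : ∀ᶠ q in 𝓝[sphere z 1] (pt z s), T q = T (pt z s) := Lc_circle hs
  have hsub : Ex T z P ⊆ sphere z 1 := fun q hq => hq.1
  have h2 : (𝓝[Ex T z P] (pt z s)).NeBot := mem_closure_iff_nhdsWithin_neBot.1 hP
  obtain ⟨q, hq1, hq2⟩ :=
    ((h1.filter_mono (nhdsWithin_mono _ hsub)).and self_mem_nhdsWithin).exists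
  rw [← hq1, ex_self hq2]

theorem ncard_four {a b c d : Fin 6} (nd : [a, b, c, d].Nodup) :
    ({a, b, c, d} : Set (Fin 6)).ncard = 4 := by
  simp only [List.nodup_cons, List.mem_cons, List.not_mem_nil, or_false, not_or,
    List.nodup_nil, not_false_eq_true, and_true] at nd
  obtain ⟨⟨h1, h2, h3⟩, ⟨h4, h5⟩, h6⟩ := nd
  rw [Set.ncard_insert_of_notMem (by simp [*]), Set.ncard_insert_of_notMem (by simp [*]),
    Set.ncard_pair h6]

/-- exact pairs at a point with four colours -/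
theorem pair_cases (h : Irr U T) (hmin : Mn338 U T) {z g q : ℂ} {a b c d : Fin 6}
    (hpal : T z = {a, b, c, d}) (nd : [a, b, c, d].Nodup) (hg : Arc T z g {a, b})
    (hq : dist q z = 1) (hs : T q ⊆ T z) (hc : (T q).ncard = 2) :
    T q = {a, b} ∨ T q = {c, d} := by
  have h4 : (T z).ncard = 4 := by rw [hpal]; exact ncard_four nd
  have hTg : T g = {a, b} := hg.2.self_of_nhdsWithin (show g ∈ sphere z 1 from hg.1)
  have hab : a ≠ b := by
    simp only [List.nodup_cons, List.mem_cons, List.not_mem_nil, or_false, not_or] at nd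
    exact nd.1.1
  rcases h.pairs_disjoint hmin h4 hq hg.1 hs (by rw [hTg, hpal]; intro i hi; simp at hi ⊢; tauto)
    hc (by rw [hTg]; exact Set.ncard_pair hab) with h1 | h1
  · left; rw [h1, hTg]
  · right
    have h2 : T q ⊆ {c, d} := by
      intro i hi
      have h3 := hs hi
      rw [hpal] at h3
      have h4 : i ∉ T g := Set.disjoint_left.1 h1 hi
      rw [hTg] at h4
      simp at h3 h4 ⊢
      tauto
    exact Set.eq_of_subset_of_ncard_le h2 (by
      rw [hc]; exact (Set.ncard_insert_le _ _).trans (by simp)) (Set.toFinite _)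

/-- a colour of the complement, or the exact pair `{a, b}`, if `{c, d}` is impossible -/
theorem letter_lock (h : Irr U T) (hmin : Mn338 U T) {z g : ℂ} {a b c d e f : Fin 6}
    (hpal : T z = {a, b, c, d}) (nd : [a, b, c, d].Nodup) (hall : ∀ i : Fin 6,
      i = a ∨ i = b ∨ i = c ∨ i = d ∨ i = e ∨ i = f) (hg : Arc T z g {a, b}) {s : ℝ}
    (hs : s ∈ Lc T z) (hcd : T (pt z s) ≠ {c, d}) :
    T (pt z s) = {a, b} ∨ (e ∈ T (pt z s) ∨ f ∈ T (pt z s)) := by
  have h4 : (T z).ncard = 4 := by rw [hpal]; exact ncard_four nd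
  rcases letter_four h h4 (dist_pt z s) (Lc_circle hs) with ⟨i, hi, hiz⟩ | ⟨h1, h2⟩
  · right
    rw [hpal] at hiz
    rcases hall i with rfl | rfl | rfl | rfl | rfl | rfl
    · exact absurd (by simp) hiz
    · exact absurd (by simp) hiz
    · exact absurd (by simp) hiz
    · exact absurd (by simp) hiz
    · exact Or.inl hi
    · exact Or.inr hi
  · left
    rcases pair_cases h hmin hpal nd hg (dist_pt z s) h1 h2 with h3 | h3
    · exact h3
    · exact absurd h3 hcd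

/-- the locked angles -/
def Lk (T : ℂ → Set (Fin 6)) (z p : ℂ) (a b e f : Fin 6) : Set ℝ :=
  {s | Av T z {a, b} s ∧ Av T z {a, b} (s + 3) ∧ Av T p {e, f} s ∧ Av T p {e, f} (s + 3)}

theorem Lk_closed (z p : ℂ) (a b e f : Fin 6) : IsClosed (Lk T z p a b e f) := by
  have hc : Continuous fun v : ℝ => v + 3 := by fun_prop
  exact (Av.closed z _).inter (((Av.closed z _).preimage hc).inter
    ((Av.closed p _).inter ((Av.closed p _).preimage hc)))

/-- a **column swap**: at the angle `s` an arc `{a, b}` of `S(z)` and an arc `{e, f}` of `S(p)` end,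
while the antipodal points are still limits of arcs `{a, b}` and `{e, f}` -/
structure Col (T : ℂ → Set (Fin 6)) (z p : ℂ) (a b e f : Fin 6) (s : ℝ) : Prop where
  z1 : Av T z {a, b} s
  z2 : Av T z {a, b} (s + 3)
  p1 : Av T p {e, f} s
  p2 : Av T p {e, f} (s + 3)
  ex : ∃ P Q : Set (Fin 6), Disjoint P Q ∧ (e ∈ P ∨ f ∈ P) ∧ (a ∈ Q ∨ b ∈ Q) ∧
    Av T z P s ∧ Av T p Q s ∧
    ∃ᶠ v in 𝓝 s, v ∈ Lc T z ∧ v ∈ Lc T p ∧ T (pt z v) = P ∧ T (pt p v) = Q

/-- frequently for one of finitely many pairs of palettes -/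
theorem freq_pal {z p : ℂ} {s c : ℝ} {R : Set (Fin 6) → Set (Fin 6) → Prop}
    (hf : ∃ᶠ v in 𝓝 s, v + c ∈ Lc T z ∧ v + c ∈ Lc T p ∧ R (T (pt z (v + c))) (T (pt p (v + c)))) :
    ∃ P Q : Set (Fin 6), R P Q ∧ Av T z P (s + c) ∧ Av T p Q (s + c) ∧
      ∃ᶠ v in 𝓝 (s + c), v ∈ Lc T z ∧ v ∈ Lc T p ∧ T (pt z v) = P ∧ T (pt p v) = Q := by
  have h1 : Tendsto (fun v : ℝ => v + c) (𝓝 s) (𝓝 (s + c)) := by
    have : Continuous fun v : ℝ => v + c := by fun_prop
    exact this.tendsto s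
  have h2 : ∃ P Q : Set (Fin 6), R P Q ∧ ∃ᶠ v in 𝓝 s,
      v + c ∈ Lc T z ∧ v + c ∈ Lc T p ∧ T (pt z (v + c)) = P ∧ T (pt p (v + c)) = Q := by
    by_contra hcon
    push Not at hcon
    refine hf ?_
    have h3 : ∀ᶠ v in 𝓝 s, ∀ P Q : Set (Fin 6), R P Q → ¬ (v + c ∈ Lc T z ∧ v + c ∈ Lc T p ∧
        T (pt z (v + c)) = P ∧ T (pt p (v + c)) = Q) := by
      rw [eventually_all]; intro P
      rw [eventually_all]; intro Q
      by_cases hR : R P Q
      · exact (hcon P Q hR).mono fun v hv _ h5 => hv h5.1 h5.2.1 h5.2.2.1 h5.2.2.2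
      · exact Eventually.of_forall fun v h4 => absurd h4 hR
    filter_upwards [h3] with v hv h4
    exact hv _ _ h4.2.2 ⟨h4.1, h4.2.1, rfl, rfl⟩
  obtain ⟨P, Q, hR, hPQ⟩ := h2
  refine ⟨P, Q, hR, Av.of_freq (hPQ.mono fun v hv => ⟨hv.1, hv.2.2.1⟩),
    Av.of_freq (hPQ.mono fun v hv => ⟨hv.2.1, hv.2.2.2⟩), h1.frequently (hPQ.mono fun v hv => hv)⟩

theorem all_six {a b c d e f : Fin 6} (nd : [a, b, c, d, e, f].Nodup) (i : Fin 6) :
    i = a ∨ i = b ∨ i = c ∨ i = d ∨ i = e ∨ i = f := by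
  have h1 : ([a, b, c, d, e, f].toFinset) = Finset.univ := by
    apply Finset.eq_univ_of_card
    rw [List.toFinset_card_of_nodup nd]
    simp
  have h2 : i ∈ [a, b, c, d, e, f].toFinset := by rw [h1]; exact Finset.mem_univ i
  simpa using h2

/-- **The lock lemma.** -/
theorem lock (h : Irr U T) (hmin : Mn338 U T) {z p : ℂ} {a b c d e f : Fin 6}
    (hz : DPt T z a b c d) (nd : [a, b, c, d, e, f].Nodup) (hzp : dist z p = 1)
    (hp : T p = {c, d, e, f}) (hne : (Lk T z p a b e f).Nonempty) :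
    ∃ s, Col T z p a b e f s := by
  classical
  by_contra hno
  push Not at hno
  have hall := all_six nd
  have hall' : ∀ i : Fin 6, i = e ∨ i = f ∨ i = c ∨ i = d ∨ i = a ∨ i = b := fun i => by
    rcases hall i with h1 | h1 | h1 | h1 | h1 | h1 <;> simp [h1]
  have nd4 : [a, b, c, d].Nodup := by
    simp only [List.nodup_cons, List.mem_cons, List.not_mem_nil, or_false, not_or,
      List.nodup_nil, not_false_eq_true, and_true] at nd ⊢
    tauto
  have nd4' : [e, f, c, d].Nodup := by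
    simp only [List.nodup_cons, List.mem_cons, List.not_mem_nil, or_false, not_or,
      List.nodup_nil, not_false_eq_true, and_true] at nd ⊢
    obtain ⟨⟨_, _, _, _, _⟩, ⟨_, _, _, _⟩, ⟨h0, h1, h2⟩, ⟨h3, h4⟩, h5⟩ := nd
    exact ⟨⟨h5, Ne.symm h1, Ne.symm h3⟩, ⟨Ne.symm h2, Ne.symm h4⟩, h0⟩
  have hp' : T p = {e, f, c, d} := by
    rw [hp]; ext i; simp only [mem_insert_iff, mem_singleton_iff]; tauto
  obtain ⟨g, hg⟩ := hz.arc1
  -- an exact arc `{e, f}` of `p`
  obtain ⟨s0, hs0⟩ := hne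
  obtain ⟨g', hg'⟩ : ∃ g', Arc T p g' {e, f} := by
    obtain ⟨q, hq⟩ := closure_nonempty_iff.1 ⟨_, hs0.2.2.1⟩
    exact ⟨q, hq⟩
  -- no `{c, d}` near a locked angle
  have hcz : ∀ s, Av T z {a, b} (s + 3) → ¬ {c, d} ⊆ T (pt z s) := by
    intro s hs hcd
    have h1 := hs.sub h
    refine h.anti hz (V := pt z (s + 3)) (dist_pt z _) (h.sub _ (h1 (by simp)))
      (h.sub _ (h1 (by simp))) ?_ ?_
    · rw [pt_three, show 2 * z - (2 * z - pt z s) = pt z s by ring]
      exact h.sub _ (hcd (by simp))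
    · rw [pt_three, show 2 * z - (2 * z - pt z s) = pt z s by ring]
      exact h.sub _ (hcd (by simp))
  have hcp : ∀ s, Av T p {e, f} (s + 3) → ∀ᶠ v in 𝓝 s, v ∈ Lc T p → T (pt p v) ≠ {c, d} := by
    intro s hs
    have h1 := hs.sub h
    filter_upwards [(continuous_pt p).tendsto s |>.eventually (h.nhd (pt p s))] with v hv hvL hv2
    have hD : DPt T p e f c d :=
      { pal := hp'
        ac := by rintro rfl; simp at nd4'
        ad := by rintro rfl; simp at nd4'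
        bc := by rintro rfl; simp at nd4'
        bd := by rintro rfl; simp at nd4'
        ab := by rintro rfl; simp at nd4'
        cd := by rintro rfl; simp at nd4'
        arc1 := ⟨g', hg'⟩
        arc2 := ⟨pt p v, by rw [← hv2]; exact Lc_Ex hvL⟩ }
    have h2 : {c, d} ⊆ T (pt p s) := by rw [← hv2]; exact hv
    refine h.anti hD (V := pt p (s + 3)) (dist_pt p _) (h.sub _ (h1 (by simp)))
      (h.sub _ (h1 (by simp))) ?_ ?_
    · rw [pt_three, show 2 * p - (2 * p - pt p s) = pt p s by ring]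
      exact h.sub _ (h2 (by simp))
    · rw [pt_three, show 2 * p - (2 * p - pt p s) = pt p s by ring]
      exact h.sub _ (h2 (by simp))
  -- the letters in one direction
  have hslot : ∀ v, v ∈ Lc T z → v ∈ Lc T p → pt z v ≠ p → pt z (v + 3) ≠ p →
      T (pt z v) ≠ {c, d} → T (pt p v) ≠ {c, d} →
      (T (pt z v) = {a, b} ∧ T (pt p v) = {e, f}) ∨
        (Disjoint (T (pt z v)) (T (pt p v)) ∧ (e ∈ T (pt z v) ∨ f ∈ T (pt z v)) ∧
          (a ∈ T (pt p v) ∨ b ∈ T (pt p v))) := by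
    intro v hv hv' h1 h2 h3 h4
    have hd := dj_prod h (y := p) hzp hv h1 h2
    rcases letter_lock h hmin hz.pal nd4 hall hg hv h3 with k1 | k1 <;>
      rcases letter_lock h hmin hp' nd4' hall' hg' hv' h4 with k2 | k2
    · exact Or.inl ⟨k1, k2⟩
    · exfalso
      rw [k1] at hd
      rcases k2 with k2 | k2
      · exact Set.disjoint_left.1 hd (by simp) k2
      · exact Set.disjoint_left.1 hd (by simp) k2
    · exfalso
      rw [k2] at hd
      rcases k1 with k1 | k1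
      · exact Set.disjoint_left.1 hd k1 (by simp)
      · exact Set.disjoint_left.1 hd k1 (by simp)
    · exact Or.inr ⟨hd, k1, k2⟩
  -- the set of locked angles is open
  have hopen : IsOpen (Lk T z p a b e f) := by
    rw [isOpen_iff_mem_nhds]
    intro s hs
    by_contra hcon
    have hfr : ∃ᶠ v in 𝓝 s, v ∉ Lk T z p a b e f := fun hh =>
      hcon (mem_of_superset hh fun v hv => not_not.1 hv)
    obtain ⟨h1, h2, h3, h4⟩ := hs
    have hD := (Dir_dense (κ := Fin 2) ![z, p] 0).inter_of_isOpen_right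
      (Lall_dense (z := ![z, p]) (φ := 0) h) Lall_open
    have hfr2 : ∃ᶠ v in 𝓝 s, v ∉ Lk T z p a b e f ∧ (v ∈ Lc T z ∧ v + 3 ∈ Lc T z ∧ v ∈ Lc T p ∧
        v + 3 ∈ Lc T p ∧ pt z v ≠ p ∧ pt z (v + 3) ≠ p) := by
      rw [frequently_iff]
      intro N hN
      obtain ⟨N', hN', hNo, hsN⟩ := _root_.mem_nhds_iff.1 hN
      obtain ⟨v, hv1, hv2⟩ := frequently_iff.1 hfr (hNo.mem_nhds hsN)
      obtain ⟨w, hw1, hw2, hw3⟩ := hD.inter_open_nonempty (N' ∩ (Lk T z p a b e f)ᶜ)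
        (hNo.inter (Lk_closed z p a b e f).isOpen_compl) ⟨v, hv1, hv2⟩
      refine ⟨w, hN' hw1.1, hw1.2, ?_⟩
      have k1 := hw3 (0, 0)
      have k2 := hw3 (0, 3)
      have k3 := hw3 (1, 0)
      have k4 := hw3 (1, 3)
      have k5 := hw2 0 1 0
      have k6 := hw2 0 1 3
      simp at k1 k2 k3 k4 k5 k6
      exact ⟨k1, k2, k3, k4, k5, k6⟩
    have e1 : ∀ᶠ v in 𝓝 s, T (pt z v) ≠ {c, d} := by
      filter_upwards [(continuous_pt z).tendsto s |>.eventually (h.nhd (pt z s))] with v hv hv2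
      exact hcz s h2 (by rw [← hv2]; exact hv)
    have hc3 : Tendsto (fun v : ℝ => v + 3) (𝓝 s) (𝓝 (s + 3)) := by
      have : Continuous fun v : ℝ => v + 3 := by fun_prop
      exact this.tendsto s
    have e2 : ∀ᶠ v in 𝓝 s, T (pt z (v + 3)) ≠ {c, d} := by
      filter_upwards [hc3.eventually ((continuous_pt z).tendsto (s + 3) |>.eventually
        (h.nhd (pt z (s + 3))))] with v hv hv2
      exact hcz (s + 3) (Av.per.2 h1) (by rw [← hv2]; exact hv)
    have e3 := hcp s h4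
    have e4 := hc3.eventually (hcp (s + 3) (Av.per.2 h3))
    have hfr3 := hfr2.and_eventually (e1.and (e2.and (e3.and e4)))
    have hfr4 : ∃ᶠ v in 𝓝 s,
        (v + 0 ∈ Lc T z ∧ v + 0 ∈ Lc T p ∧ (fun P Q : Set (Fin 6) => Disjoint P Q ∧ (e ∈ P ∨ f ∈ P) ∧
          (a ∈ Q ∨ b ∈ Q)) (T (pt z (v + 0))) (T (pt p (v + 0)))) ∨
        (v + 3 ∈ Lc T z ∧ v + 3 ∈ Lc T p ∧ (fun P Q : Set (Fin 6) => Disjoint P Q ∧ (e ∈ P ∨ f ∈ P) ∧
          (a ∈ Q ∨ b ∈ Q)) (T (pt z (v + 3))) (T (pt p (v + 3)))) := by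
      refine hfr3.mono ?_
      rintro v ⟨⟨k0, k1, k2, k3, k4, k5, k6⟩, k7, k8, k9, k10⟩
      have m1 := hslot v k1 k3 k5 k6 k7 (k9 k3)
      have m2 := hslot (v + 3) k2 k4 k6 (by rw [show v + 3 + 3 = v + 6 by ring, pt_six]; exact k5)
        k8 (k10 k4)
      rcases m1 with m1 | m1
      · rcases m2 with m2 | m2
        · exact absurd ⟨by rw [← m1.1]; exact Av.of_Lc k1, by rw [← m2.1]; exact Av.of_Lc k2,
            by rw [← m1.2]; exact Av.of_Lc k3, by rw [← m2.2]; exact Av.of_Lc k4⟩ k0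
        · exact Or.inr ⟨k2, k4, m2⟩
      · left
        rw [add_zero]
        exact ⟨k1, k3, m1⟩
    rw [frequently_or_distrib] at hfr4
    rcases hfr4 with hf | hf
    · obtain ⟨P, Q, ⟨r1, r2, r3⟩, r4, r5, r6⟩ := freq_pal (T := T) (z := z) (p := p) (c := 0)
        (R := fun P Q => Disjoint P Q ∧ (e ∈ P ∨ f ∈ P) ∧ (a ∈ Q ∨ b ∈ Q)) hf
      rw [add_zero] at r4 r5 r6
      exact hno s ⟨h1, h2, h3, h4, P, Q, r1, r2, r3, r4, r5, r6⟩
    · obtain ⟨P, Q, ⟨r1, r2, r3⟩, r4, r5, r6⟩ := freq_pal (T := T) (z := z) (p := p) (c := 3)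
        (R := fun P Q => Disjoint P Q ∧ (e ∈ P ∨ f ∈ P) ∧ (a ∈ Q ∨ b ∈ Q)) hf
      exact hno (s + 3) ⟨h2, Av.per.2 h1, h4, Av.per.2 h3, P, Q, r1, r2, r3, r4, r5, r6⟩
  have huniv : Lk T z p a b e f = univ :=
    IsClopen.eq_univ ⟨Lk_closed z p a b e f, hopen⟩ ⟨s0, hs0⟩
  obtain ⟨v, hv⟩ := (Lc_dense h z).nonempty
  have m1 : v ∈ Lk T z p a b e f := by rw [huniv]; trivial
  have m2 : v + 1 ∈ Lk T z p a b e f := by rw [huniv]; trivial
  have m3 : T (pt z v) = {a, b} := Av.eq_of_Lc hv m1.1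
  have m4 := dj_sixty h hv
  rw [m3] at m4
  exact Set.disjoint_left.1 m4 (show a ∈ ({a, b} : Set (Fin 6)) by simp) (m2.1.sub h (by simp))

/-- available palettes in the angle coordinate -/
theorem Av.freq {z : ℂ} {P : Set (Fin 6)} {s : ℝ} (hs : Av T z P s) :
    ∃ᶠ v in 𝓝 s, v ∈ Lc T z ∧ T (pt z v) = P := by
  intro hcon
  have h1 : ∀ᶠ q in 𝓝[sphere z 1] (pt z s), q ∉ Ex T z P := by
    refine ev_circle z (hcon.mono fun v hv hE => hv ?_)
    have h2 : ∀ᶠ w in 𝓝 v, T (pt z w) = P := ev_pt z hE.2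
    exact ⟨by
      show ∀ᶠ w in 𝓝 v, T (pt z w) = T (pt z v)
      rw [ex_self hE]; exact h2, ex_self hE⟩
  have hsub : Ex T z P ⊆ sphere z 1 := fun q hq => hq.1
  have h2 : (𝓝[Ex T z P] (pt z s)).NeBot := mem_closure_iff_nhdsWithin_neBot.1 hs
  obtain ⟨q, hq1, hq2⟩ :=
    ((h1.filter_mono (nhdsWithin_mono _ hsub)).and self_mem_nhdsWithin).exists
  exact hq1 hq2

/-- a frequent property of angles of `Lc` also holds at angles of a dense open set -/
theorem Av.freq_dense {z : ℂ} {P : Set (Fin 6)} {s : ℝ} (hs : Av T z P s) {D : Set ℝ}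
    (hD : Dense D) : ∃ᶠ v in 𝓝 s, v ∈ D ∧ v ∈ Lc T z ∧ T (pt z v) = P := by
  have hf := hs.freq
  have hfo : IsOpen {v | v ∈ Lc T z ∧ T (pt z v) = P} := by
    rw [isOpen_iff_mem_nhds]
    rintro v ⟨hv1, hv2⟩
    have hv3 : ∀ᶠ w in 𝓝 v, T (pt z w) = T (pt z v) := hv1
    filter_upwards [(Lc_open z).mem_nhds hv1, hv3] with w h1 h2
    exact ⟨h1, h2.trans hv2⟩
  rw [frequently_iff]
  intro N hN
  obtain ⟨N', hN', hNo, hsN⟩ := _root_.mem_nhds_iff.1 hN
  obtain ⟨v, hv1, hv2⟩ := frequently_iff.1 hf (hNo.mem_nhds hsN)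
  obtain ⟨w, hw1, hw2⟩ := hD.inter_open_nonempty _ (hNo.inter hfo) ⟨v, hv1, hv2⟩
  exact ⟨w, hN' hw1.1, hw2, hw1.2⟩

/-- near a point `q` of `S(p)` whose palette is a pair inside `T p` the circle is exact -/
theorem exact_near (h : Irr U T) {p q : ℂ} {e f : Fin 6} (hqp : dist q p = 1)
    (hq : T q ⊆ {e, f}) (hp : {e, f} ⊆ T p) : q ∈ Ex T p {e, f} := by
  refine ⟨hqp, ?_⟩
  filter_upwards [mem_nhdsWithin_of_mem_nhds (h.nhd q), self_mem_nhdsWithin] with x hx hxp
  have h1 : T x ⊆ {e, f} := fun i hi => hq (hx hi)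
  have h2 := two_le_of_sub (z := p) (q := x) h hxp (h1.trans hp)
  exact Set.eq_of_subset_of_ncard_le h1
    (((Set.ncard_insert_le _ _).trans (by simp)).trans h2) (Set.toFinite _)

/-- **The mixed swap is locked** (84 #11168, 343 #11530): `p`, `q` on the circle of a two-pair point
`z`, `T p = {c, d, e, f}`, `T q = {e, f}`, and `{a, b}` available at the two outer neighbours. -/
theorem lock42 (h : Irr U T) (hmin : Mn338 U T) {z : ℂ} {a b c d e f : Fin 6}
    (hz : DPt T z a b c d) (nd : [a, b, c, d, e, f].Nodup) {θ : ℝ}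
    (hp : T (pt z (θ + 1)) = {c, d, e, f}) (hq : T (pt z (θ + 2)) = {e, f})
    (h0 : Av T z {a, b} θ) (h3 : Av T z {a, b} (θ + 3)) :
    ∃ s, Col T z (pt z (θ + 1)) a b e f s := by
  set p := pt z (θ + 1) with hpdef
  have hzp : dist z p = 1 := by rw [dist_comm]; exact dist_pt z _
  have hqp : pt p (θ + 3) = pt z (θ + 2) := by
    rw [pt_three]
    have h1 := pt_sum z θ
    rw [← hpdef] at h1
    have h2 : pt p θ = p + (pt z θ - z) := by unfold pt; ring
    rw [h2]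
    linear_combination -h1
  have hqE : pt p (θ + 3) ∈ Ex T p {e, f} := by
    refine exact_near h (dist_pt p _) (by rw [hqp, hq]) ?_
    rw [hp]; intro i hi; simp at hi ⊢; tauto
  refine lock h hmin hz nd hzp hp ⟨θ, h0, h3, ?_, subset_closure hqE⟩
  -- `{e, f}` at the direction `θ` of `p`
  have hnd := nd
  simp only [List.nodup_cons, List.mem_cons, List.not_mem_nil, or_false, not_or, List.nodup_nil,
    and_true, not_false_eq_true] at hnd
  obtain ⟨⟨ab, ac, ad, ae, af⟩, ⟨bc, bd, be, bf⟩, ⟨cd, ce, cf⟩, ⟨de, df⟩, ef⟩ := hnd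
  have hD := (Dir_dense (κ := Fin 2) ![z, p] 0).inter_of_isOpen_right
    (Lall_dense (z := ![z, p]) (φ := 0) h) Lall_open
  have hf := h0.freq_dense hD
  have hc3 : Tendsto (fun v : ℝ => v + 3) (𝓝 θ) (𝓝 (θ + 3)) := by
    have : Continuous fun v : ℝ => v + 3 := by fun_prop
    exact this.tendsto θ
  have hE3 : ∀ᶠ v in 𝓝 θ, pt p (v + 3) ∈ Ex T p {e, f} := by
    have h1 : ∀ᶠ v in 𝓝 (θ + 3), pt p v ∈ Ex T p {e, f} := ev_pt p (ex_open hqE)
    exact hc3.eventually h1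
  have hp' : T p = {e, f, c, d} := by
    rw [hp]; ext i; simp only [mem_insert_iff, mem_singleton_iff]; tauto
  have nd4' : [e, f, c, d].Nodup := by
    simp only [List.nodup_cons, List.mem_cons, List.not_mem_nil, or_false, not_or,
      List.nodup_nil, not_false_eq_true, and_true]
    exact ⟨⟨ef, Ne.symm ce, Ne.symm de⟩, ⟨Ne.symm cf, Ne.symm df⟩, cd⟩
  have hall' : ∀ i : Fin 6, i = e ∨ i = f ∨ i = c ∨ i = d ∨ i = a ∨ i = b := fun i => by
    rcases all_six nd i with h1 | h1 | h1 | h1 | h1 | h1 <;> simp [h1]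
  have hg' : Arc T p (pt p (θ + 3)) {e, f} := hqE
  have hkey : ∃ᶠ v in 𝓝 θ, v + 0 ∈ Lc T p ∧ T (pt p (v + 0)) = {e, f} := by
    refine (hf.and_eventually hE3).mono ?_
    rintro v ⟨⟨⟨hv1, hv2⟩, hv3, hv4⟩, hv5⟩
    have k3 := hv2 (1, 0)
    have k4 := hv2 (1, 3)
    have k5 := hv1 0 1 0
    have k6 := hv1 0 1 3
    simp at k3 k4 k5 k6
    rw [add_zero]
    refine ⟨k3, ?_⟩
    have hd := dj_prod h (y := p) hzp hv3 k5 k6
    rw [hv4] at hd
    have hne : T (pt p v) ≠ {c, d} := by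
      intro hcd
      have hDp : DPt T p e f c d :=
        { pal := hp', ac := Ne.symm ce, ad := Ne.symm de, bc := Ne.symm cf, bd := Ne.symm df,
          ab := ef, cd := cd, arc1 := ⟨_, hg'⟩, arc2 := ⟨pt p v, by rw [← hcd]; exact Lc_Ex k3⟩ }
      have h1 := ex_self hv5
      refine h.anti hDp (V := pt p (v + 3)) (dist_pt p _) (h.sub _ (by rw [h1]; simp))
        (h.sub _ (by rw [h1]; simp)) ?_ ?_
      · rw [pt_three, show 2 * p - (2 * p - pt p v) = pt p v by ring]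
        exact h.sub _ (by rw [hcd]; simp)
      · rw [pt_three, show 2 * p - (2 * p - pt p v) = pt p v by ring]
        exact h.sub _ (by rw [hcd]; simp)
    rcases letter_lock h hmin hp' nd4' hall' hg' k3 hne with k | k | k
    · exact k
    · exact absurd k (Set.disjoint_left.1 hd (by simp))
    · exact absurd k (Set.disjoint_left.1 hd (by simp))
  have := Av.of_freq hkey
  rwa [add_zero] at this

end Vale.Agent.P032.H561
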