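import Vale.Agent.P032.H561.Lock
import Vale.Agent.P032.H802.Swap
import Vale.Agent.P032.H889.PairRule

/-!
# P032: swaps of the free letters at a two-pair point lead to column swaps, and the shape of a
column swap (84 #11168, 343 #11530, #11804)
-/

open Set Filter Topology Metric

noncomputable section

namespace Vale.Agent.P032.H561

open Vale.Agent.P032.Six Vale.Agent.P032.S5.H767 Vale.Agent.P032.S5.H122 Vale.Agent.P032.Sweep
  Vale.Agent.P032.H338

variable {U : Fin 6 → Set ℂ} {T : ℂ → Set (Fin 6)}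

/-- `{e, f}` exact on `S(p)` in one direction, `{a, b}` available on `S(z)` in the opposite one:
`{e, f}` is available on `S(p)` there too -/
theorem opp_ef (h : Irr U T) (hmin : Mn338 U T) {z p : ℂ} {a b c d e f : Fin 6}
    (nd : [a, b, c, d, e, f].Nodup) (hzp : dist z p = 1)
    (hp : T p = {c, d, e, f}) {θ : ℝ} (hqE : pt p (θ + 3) ∈ Ex T p {e, f})
    (h0 : Av T z {a, b} θ) : Av T p {e, f} θ := by
  have hnd := nd
  simp only [List.nodup_cons, List.mem_cons, List.not_mem_nil, or_false, not_or, List.nodup_nil,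
    and_true, not_false_eq_true] at hnd
  obtain ⟨⟨ab, ac, ad, ae, af⟩, ⟨bc, bd, be, bf⟩, ⟨cd, ce, cf⟩, ⟨de, df⟩, ef⟩ := hnd
  have hD := (Dir_dense (κ := Fin 2) ![z, p] 0).inter_of_isOpen_right
    (Lall_dense (z := ![z, p]) (φ := 0) h) Lall_open
  have hf := h0.freq_dense hD
  have hc3 : Tendsto (fun v : ℝ => v + 3) (𝓝 θ) (𝓝 (θ + 3)) := by
    have : Continuous fun v : ℝ => v + 3 := by fun_prop
    exact this.tendsto θ
  have hE3 : ∀ᶠ v in 𝓝 θ, pt p (v + 3) ∈ Ex T p {e, f} := by
    have h1 : ∀ᶠ v in 𝓝 (θ + 3), pt p v ∈ Ex T p {e, f} := ev_pt p (ex_open hqE)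
    exact hc3.eventually h1
  have hp' : T p = {e, f, c, d} := by
    rw [hp]; ext i; simp only [mem_insert_iff, mem_singleton_iff]; tauto
  have nd4' : [e, f, c, d].Nodup := by
    simp only [List.nodup_cons, List.mem_cons, List.not_mem_nil, or_false, not_or,
      List.nodup_nil, not_false_eq_true, and_true]
    exact ⟨⟨ef, Ne.symm ce, Ne.symm de⟩, ⟨Ne.symm cf, Ne.symm df⟩, cd⟩
  have hall' : ∀ i : Fin 6, i = e ∨ i = f ∨ i = c ∨ i = d ∨ i = a ∨ i = b := fun i => by
    rcases all_six nd i with h1 | h1 | h1 | h1 | h1 | h1 <;> simp [h1]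
  have hg' : Arc T p (pt p (θ + 3)) {e, f} := hqE
  have hkey : ∃ᶠ v in 𝓝 θ, v + 0 ∈ Lc T p ∧ T (pt p (v + 0)) = {e, f} := by
    refine (hf.and_eventually hE3).mono ?_
    rintro v ⟨⟨⟨hv1, hv2⟩, hv3, hv4⟩, hv5⟩
    have k3 := hv2 (1, 0)
    have k4 := hv2 (1, 3)
    have k5 := hv1 0 1 0
    have k6 := hv1 0 1 3
    simp at k3 k4 k5 k6
    rw [add_zero]
    refine ⟨k3, ?_⟩
    have hd := dj_prod h (y := p) hzp hv3 k5 k6
    rw [hv4] at hd
    have hne : T (pt p v) ≠ {c, d} := by
      intro hcd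
      have hDp : DPt T p e f c d :=
        { pal := hp', ac := Ne.symm ce, ad := Ne.symm de, bc := Ne.symm cf, bd := Ne.symm df,
          ab := ef, cd := cd, arc1 := ⟨_, hg'⟩, arc2 := ⟨pt p v, by rw [← hcd]; exact Lc_Ex k3⟩ }
      have h1 := ex_self hv5
      refine h.anti hDp (V := pt p (v + 3)) (dist_pt p _) (h.sub _ (by rw [h1]; simp))
        (h.sub _ (by rw [h1]; simp)) ?_ ?_
      · rw [pt_three, show 2 * p - (2 * p - pt p v) = pt p v by ring]
        exact h.sub _ (by rw [hcd]; simp)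
      · rw [pt_three, show 2 * p - (2 * p - pt p v) = pt p v by ring]
        exact h.sub _ (by rw [hcd]; simp)
    rcases letter_lock h hmin hp' nd4' hall' hg' k3 hne with k | k | k
    · exact k
    · exact absurd k (Set.disjoint_left.1 hd (by simp))
    · exact absurd k (Set.disjoint_left.1 hd (by simp))
  have := Av.of_freq hkey
  rwa [add_zero] at this

/-- the mirror image of `lock42` -/
theorem lock42' (h : Irr U T) (hmin : Mn338 U T) {z : ℂ} {a b c d e f : Fin 6}
    (hz : DPt T z a b c d) (nd : [a, b, c, d, e, f].Nodup) {θ : ℝ}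
    (hp : T (pt z (θ + 2)) = {c, d, e, f}) (hq : T (pt z (θ + 1)) = {e, f})
    (h0 : Av T z {a, b} θ) (h3 : Av T z {a, b} (θ + 3)) :
    ∃ s, Col T z (pt z (θ + 2)) a b e f s := by
  set p := pt z (θ + 2) with hpdef
  have hzp : dist z p = 1 := by rw [dist_comm]; exact dist_pt z _
  have hqp : pt p θ = pt z (θ + 1) := by
    have h1 := pt_sum z θ
    rw [← hpdef] at h1
    have h2 : pt p θ = p + (pt z θ - z) := by unfold pt; ring
    rw [h2]
    linear_combination h1
  have hqE : pt p θ ∈ Ex T p {e, f} := by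
    refine exact_near h (dist_pt p _) (by rw [hqp, hq]) ?_
    rw [hp]; intro i hi; simp at hi ⊢; tauto
  have h6 : pt p (θ + 3 + 3) ∈ Ex T p {e, f} := by
    rw [show θ + 3 + 3 = θ + 6 by ring, pt_six]; exact hqE
  exact lock h hmin hz nd hzp hp ⟨θ, h0, h3, subset_closure hqE,
    opp_ef h hmin nd hzp hp h6 h3⟩

/-- **An isolated swap of the free letters leads to a column swap.** `z` two-pair, exact `ab`-arcs
of `S(z)` at `pt z θ` and `pt z (θ + 3)`, both free colours at `pt z (θ + 1)` and `pt z (θ + 2)`, and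
free colours on both sides of `pt z (θ + 1)`. -/
theorem swap_col (h : Irr U T) (hmin : Mn338 U T) {z : ℂ} {a b c d e f : Fin 6}
    (hz : DPt T z a b c d) (nd : [a, b, c, d, e, f].Nodup) {θ : ℝ}
    (hy : Arc T z (pt z θ) {a, b}) (hy' : Arc T z (pt z (θ + 3)) {a, b})
    (ep : e ∈ T (pt z (θ + 1))) (fp : f ∈ T (pt z (θ + 1))) (eq : e ∈ T (pt z (θ + 2)))
    (fq : f ∈ T (pt z (θ + 2)))
    (h1 : ∃ᶠ t : ℝ in 𝓝[>] (θ + 1), e ∈ T (pt z t) ∨ f ∈ T (pt z t))
    (h2 : ∃ᶠ t : ℝ in 𝓝[<] (θ + 1), e ∈ T (pt z t) ∨ f ∈ T (pt z t)) :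
    (∃ s, Col T z (pt z (θ + 1)) a b e f s) ∨ ∃ s, Col T z (pt z (θ + 2)) a b e f s := by
  have hpi := Real.pi_pos
  have hnd := nd
  simp only [List.nodup_cons, List.mem_cons, List.not_mem_nil, or_false, not_or, List.nodup_nil,
    and_true, not_false_eq_true] at hnd
  obtain ⟨⟨ab, ac, ad, ae, af⟩, ⟨bc, bd, be, bf⟩, ⟨cd, ce, cf⟩, ⟨de, df⟩, ef⟩ := hnd
  have he : e ∉ T z := by rw [hz.pal]; simp [Ne.symm ae, Ne.symm be, Ne.symm ce, Ne.symm de]
  have hf : f ∉ T z := by rw [hz.pal]; simp [Ne.symm af, Ne.symm bf, Ne.symm cf, Ne.symm df]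
  have hA : Av T z {a, b} θ := subset_closure hy
  have hA' : Av T z {a, b} (θ + 3) := subset_closure hy'
  have e0 : pt z θ = z + cis (θ * (Real.pi / 3)) := rfl
  have e3 : pt z (θ + 3) = z + cis (θ * (Real.pi / 3) + Real.pi) := by
    unfold pt; congr 2; ring
  have e1 : pt z (θ + 1) = z + cis (θ * (Real.pi / 3) + Real.pi / 3) := by
    unfold pt; congr 2; ring
  have e2 : pt z (θ + 2) = z + cis (θ * (Real.pi / 3) + 2 * Real.pi / 3) := by
    unfold pt; congr 2; ring
  have key : ∀ t : ℝ, z + cis (θ * (Real.pi / 3) + Real.pi / 3 + t) =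
      pt z (θ + 1 + t * (3 / Real.pi)) := by
    intro t; unfold pt; congr 2; field_simp
  have hgt : Tendsto (fun t : ℝ => (t - (θ + 1)) * (Real.pi / 3)) (𝓝[>] (θ + 1)) (𝓝[>] 0) := by
    refine tendsto_nhdsWithin_iff.2 ⟨?_, ?_⟩
    · have : Continuous fun t : ℝ => (t - (θ + 1)) * (Real.pi / 3) := by fun_prop
      have h4 := this.tendsto (θ + 1)
      simp only [sub_self, zero_mul] at h4
      exact h4.mono_left nhdsWithin_le_nhds
    · filter_upwards [self_mem_nhdsWithin] with t ht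
      have ht : θ + 1 < t := ht
      show (0 : ℝ) < (t - (θ + 1)) * (Real.pi / 3)
      exact mul_pos (sub_pos.2 ht) (by positivity)
  have hlt : Tendsto (fun t : ℝ => (t - (θ + 1)) * (Real.pi / 3)) (𝓝[<] (θ + 1)) (𝓝[<] 0) := by
    refine tendsto_nhdsWithin_iff.2 ⟨?_, ?_⟩
    · have : Continuous fun t : ℝ => (t - (θ + 1)) * (Real.pi / 3) := by fun_prop
      have h4 := this.tendsto (θ + 1)
      simp only [sub_self, zero_mul] at h4
      exact h4.mono_left nhdsWithin_le_nhds
    · filter_upwards [self_mem_nhdsWithin] with t ht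
      have ht : t < θ + 1 := ht
      show (t - (θ + 1)) * (Real.pi / 3) < (0 : ℝ)
      exact mul_neg_of_neg_of_pos (sub_neg.2 ht) (by positivity)
  have hback : ∀ t : ℝ, z + cis (θ * (Real.pi / 3) + Real.pi / 3 +
      (t - (θ + 1)) * (Real.pi / 3)) = pt z t := by
    intro t; rw [key]; congr 1; field_simp; ring
  have h1' : ∃ᶠ t : ℝ in 𝓝[>] 0, e ∈ T (z + cis (θ * (Real.pi / 3) + Real.pi / 3 + t)) ∨
      f ∈ T (z + cis (θ * (Real.pi / 3) + Real.pi / 3 + t)) :=
    hgt.frequently (h1.mono fun t ht => by rw [hback]; exact ht)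
  have h2' : ∃ᶠ t : ℝ in 𝓝[<] 0, e ∈ T (z + cis (θ * (Real.pi / 3) + Real.pi / 3 + t)) ∨
      f ∈ T (z + cis (θ * (Real.pi / 3) + Real.pi / 3 + t)) :=
    hlt.frequently (h2.mono fun t ht => by rw [hback]; exact ht)
  rcases h.swap_mixed802 hmin hz he hf ef (by rw [← e0]; exact hy) (by rw [← e3]; exact hy')
    e1 e2 ep fp eq fq h1' h2' with ⟨k1, k2, -⟩ | ⟨k1, k2, -⟩
  · exact Or.inl (lock42 h hmin hz nd k1 k2 hA hA')
  · exact Or.inr (lock42' h hmin hz nd k1 k2 hA hA')

/-- a point with constant palette without the colour `t`, if `t` is not everywhere near `w` -/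
theorem exists_without (h : Irr U T) {x w : ℂ} {t : Fin 6} (_ : dist w x = 1)
    (hnot : ¬ ∀ᶠ q in 𝓝[sphere x 1] w, t ∈ T q) {N : Set ℂ} (hN : N ∈ 𝓝 w) :
    ∃ g ∈ N, g ∈ Ex T x (T g) ∧ t ∉ T g := by
  have h1 : ∃ᶠ q in 𝓝[sphere x 1] w, t ∉ T q := Filter.not_eventually.1 hnot
  obtain ⟨N', hN', hNo, hwN⟩ := _root_.mem_nhds_iff.1 hN
  have h3 := h1.and_eventually ((mem_nhdsWithin_of_mem_nhds (hNo.mem_nhds hwN) :
    N' ∈ 𝓝[sphere x 1] w) : ∀ᶠ q in 𝓝[sphere x 1] w, q ∈ N') |>.and_eventually self_mem_nhdsWithin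
  obtain ⟨q, ⟨hq1, hq2⟩, hq3⟩ := h3.exists
  have hop : IsOpen {v : ℂ | t ∉ T v} := (h.closed t).isOpen_compl
  obtain ⟨g, ⟨⟨hg1, hg2⟩, hg3⟩, hg4⟩ := h.const (S := sphere x 1) (y := q) hq3
    (inter_mem (hNo.mem_nhds hq2) (hop.mem_nhds hq1))
  exact ⟨g, hN' hg1, ⟨hg3, hg4⟩, hg2⟩

theorem ncard_le_three_of {a b c : Fin 6} {S : Set (Fin 6)} (hS : S ⊆ {a, b, c}) : S.ncard ≤ 3 :=
  (Set.ncard_le_ncard hS (Set.toFinite _)).trans
    ((Set.ncard_insert_le _ _).trans (Nat.succ_le_succ
      ((Set.ncard_insert_le _ _).trans (Nat.succ_le_succ (by simp)))))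

/-- four colours `{a, b, e, f}` at both ends of a unit segment `w`, `w'`; `a`, `b` are colours of a
centre `z` of `w` off the line; `{e, f}` is available at `w'` on another circle: the exact pairs of
`w'` are `ae | bf` or `af | be` -/
theorem pairs_of_side (h : Irr U T) (hmin : Mn338 U T) {z p w w' : ℂ} {a b e f : Fin 6}
    (nd : [a, b, e, f].Nodup) (hw : T w = {a, b, e, f}) (hw' : T w' = {a, b, e, f})
    (hd : dist w w' = 1) (hwz : dist w z = 1) (ha : a ∈ T z) (hb : b ∈ T z) (n1 : z ≠ w')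
    (n2 : z + w' ≠ 2 * w) (hp : w' ∈ closure (Ex T p {e, f})) :
    DPt T w' a e b f ∨ DPt T w' a f b e := by
  have hnd := nd
  simp only [List.nodup_cons, List.mem_cons, List.not_mem_nil, or_false, not_or, List.nodup_nil,
    and_true, not_false_eq_true] at hnd
  obtain ⟨⟨ab, ae, af⟩, ⟨be, bf⟩, ef⟩ := hnd
  have h4 : (T w').ncard = 4 := by rw [hw']; exact ncard_four nd
  -- exact arcs near `w` on `S(w')`
  have key : ∀ t ∈ T z, ∃ g, Arc T w' g (T g) ∧ T g ⊆ T w' ∧ (T g).ncard = 2 ∧ t ∉ T g := by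
    intro t ht
    have hnot : ¬ ∀ᶠ q in 𝓝[sphere w' 1] w, t ∈ T q := by
      intro hev
      rcases h.third (x := w') (y := w) (v := z) hd hev hwz ht with h5 | h5
      · exact n1 h5
      · exact n2 h5
    obtain ⟨g, hg1, hg2, hg3⟩ := exists_without h hd hnot (h.nhd w)
    have hg1 : T g ⊆ T w := hg1
    have hsub : T g ⊆ T w' := by rw [hw', ← hw]; exact hg1
    refine ⟨g, hg2, hsub, ?_, hg3⟩
    rcases letter_four h h4 hg2.1 hg2.2 with ⟨i, hi, hi'⟩ | ⟨-, h6⟩
    · exact absurd (hsub hi) hi'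
    · exact h6
  obtain ⟨g1, k1, k2, k3, k4⟩ := key a ha
  obtain ⟨g2, m1, m2, m3, m4⟩ := key b hb
  have hnef : ∀ g, Arc T w' g (T g) → T g ≠ {e, f} := fun g hg =>
    H889.pair_rule_ex h hp (by rw [dist_comm]; exact hg.1)
  -- description of the two pairs
  have hdes : ∀ {x y : Fin 6} {g : ℂ}, (∀ i, i ∈ T w' ↔ i = x ∨ i = y ∨ i = e ∨ i = f) →
      Arc T w' g (T g) → T g ⊆ T w' → (T g).ncard = 2 → x ∉ T g →
      T g = {y, e} ∨ T g = {y, f} := by
    intro x y g hT hA hs hc hx
    obtain ⟨u, v, huv, hg⟩ := Set.ncard_eq_two.1 hc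
    have hu : u = y ∨ u = e ∨ u = f := by
      have h5 := (hT u).1 (hs (by rw [hg]; simp))
      rcases h5 with h5 | h5
      · subst h5; exact absurd (show u ∈ T g by rw [hg]; simp) hx
      · exact h5
    have hv : v = y ∨ v = e ∨ v = f := by
      have h5 := (hT v).1 (hs (by rw [hg]; simp))
      rcases h5 with h5 | h5
      · subst h5; exact absurd (show v ∈ T g by rw [hg]; simp) hx
      · exact h5
    have hne := hnef g hA
    rcases hu with rfl | rfl | rfl <;> rcases hv with rfl | rfl | rfl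
    · exact absurd rfl huv
    · exact Or.inl hg
    · exact Or.inr hg
    · left; rw [hg, pair_comm]
    · exact absurd rfl huv
    · exact absurd hg hne
    · right; rw [hg, pair_comm]
    · exact absurd (hg.trans (pair_comm _ _)) hne
    · exact absurd rfl huv
  have hT1 : ∀ i, i ∈ T w' ↔ i = a ∨ i = b ∨ i = e ∨ i = f := by
    intro i; rw [hw']; simp
  have hT2 : ∀ i, i ∈ T w' ↔ i = b ∨ i = a ∨ i = e ∨ i = f := by
    intro i; rw [hT1]; tauto
  have r1 := hdes hT1 k1 k2 k3 k4
  have r2 := hdes hT2 m1 m2 m3 m4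
  have hdis : Disjoint (T g1) (T g2) := by
    rcases h.pairs_disjoint hmin h4 k1.1 m1.1 k2 m2 k3 m3 with h5 | h5
    · exfalso
      have h6 : a ∈ T g2 := by rcases r2 with r2 | r2 <;> rw [r2] <;> simp
      rw [← h5] at h6
      exact k4 h6
    · exact h5
  rcases r1 with r1 | r1 <;> rcases r2 with r2 | r2
  · exfalso; rw [r1, r2] at hdis; exact Set.disjoint_left.1 hdis (show e ∈ _ by simp) (by simp)
  · right
    exact
      { pal := by rw [hw']; ext i; simp only [mem_insert_iff, mem_singleton_iff]; tauto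
        ac := ab, ad := ae, bc := Ne.symm bf, bd := Ne.symm ef, ab := af, cd := be
        arc1 := ⟨g2, by rw [← r2]; exact m1⟩
        arc2 := ⟨g1, by rw [← r1]; exact k1⟩ }
  · left
    exact
      { pal := by rw [hw']; ext i; simp only [mem_insert_iff, mem_singleton_iff]; tauto
        ac := ab, ad := af, bc := Ne.symm be, bd := ef, ab := ae, cd := bf
        arc1 := ⟨g2, by rw [← r2]; exact m1⟩
        arc2 := ⟨g1, by rw [← r1]; exact k1⟩ }
  · exfalso; rw [r1, r2] at hdis; exact Set.disjoint_left.1 hdis (show f ∈ _ by simp) (by simp)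

/-- **The shape of a column swap, palettes** (343 #11804 (2)), if `c`, `d` are missing at both
ends. -/
theorem Col.sets (h : Irr U T) {z p : ℂ} {a b c d e f : Fin 6}
    (hz : T z = {a, b, c, d}) (nd : [a, b, c, d, e, f].Nodup) (hzp : dist z p = 1)
    (hp : T p = {c, d, e, f}) {s : ℝ} (hC : Col T z p a b e f s)
    (hc1 : c ∉ T (pt z s)) (hd1 : d ∉ T (pt z s)) (hc2 : c ∉ T (pt p s)) (hd2 : d ∉ T (pt p s)) :
    T (pt z s) = {a, b, e, f} ∧ T (pt p s) = {a, b, e, f} := by
  have hnd := nd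
  simp only [List.nodup_cons, List.mem_cons, List.not_mem_nil, or_false, not_or, List.nodup_nil,
    and_true, not_false_eq_true] at hnd
  obtain ⟨⟨ab, ac, ad, ae, af⟩, ⟨bc, bd, be, bf⟩, ⟨cd, ce, cf⟩, ⟨de, df⟩, ef⟩ := hnd
  set w1 := pt z s with hw1
  set w2 := pt p s with hw2
  have hall := all_six nd
  have d12 : w2 - w1 = p - z := by rw [hw1, hw2]; unfold pt; ring
  have dist12 : dist w1 w2 = 1 := by
    rw [dist_eq_norm, ← norm_neg, neg_sub, d12, ← dist_eq_norm, dist_comm]; exact hzp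
  have dw1z : dist w1 z = 1 := dist_pt z s
  have dw2p : dist w2 p = 1 := dist_pt p s
  have n1 : w1 ≠ p := fun hh => hc1 (by rw [hh, hp]; simp)
  have n2 : z ≠ w2 := fun hh => hc2 (by rw [← hh, hz]; simp)
  have n3 : z + w2 ≠ 2 * w1 := fun hh => n1 (by linear_combination d12 - hh)
  have n4 : p ≠ w1 := fun hh => n1 hh.symm
  have n5 : p + w1 ≠ 2 * w2 := fun hh => n2 (by linear_combination d12 + hh)
  have s1 : ({a, b} : Set (Fin 6)) ⊆ T w1 := hC.z1.sub h
  have s2 : ({e, f} : Set (Fin 6)) ⊆ T w2 := hC.p1.sub h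
  obtain ⟨P, Q, -, hP, hQ, hzP, hpQ, -⟩ := hC.ex
  have sP : P ⊆ T w1 := Av.sub h hzP
  have sQ : Q ⊆ T w2 := Av.sub h hpQ
  have sub1 : T w1 ⊆ {a, b, e, f} := by
    intro i hi
    rcases hall i with rfl | rfl | rfl | rfl | rfl | rfl
    · simp
    · simp
    · exact absurd hi hc1
    · exact absurd hi hd1
    · simp
    · simp
  have sub2 : T w2 ⊆ {a, b, e, f} := by
    intro i hi
    rcases hall i with rfl | rfl | rfl | rfl | rfl | rfl
    · simp
    · simp
    · exact absurd hi hc2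
    · exact absurd hi hd2
    · simp
    · simp
  -- both colours of `{a, b}` are at `w2`
  have hab2 : a ∈ T w2 ∧ b ∈ T w2 := by
    have key : ∀ x y : Fin 6, ({x, y} : Set (Fin 6)) = {a, b} → x ∈ T w2 → y ∉ T w2 → False := by
      intro x y hxy hx hy
      have hmem : ∀ i, (i = a ∨ i = b) ↔ (i = x ∨ i = y) := by
        intro i
        have := Set.ext_iff.1 hxy i
        simp only [mem_insert_iff, mem_singleton_iff] at this
        exact this.symm
      have h3 : (T w2).ncard ≤ 3 := by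
        refine ncard_le_three_of (a := x) (b := e) (c := f) fun i hi => ?_
        have h4 := sub2 hi
        simp only [mem_insert_iff, mem_singleton_iff] at h4 ⊢
        rcases h4 with h4 | h4 | h4 | h4
        · rcases (hmem i).1 (Or.inl h4) with h5 | h5
          · exact Or.inl h5
          · subst h5; exact absurd hi hy
        · rcases (hmem i).1 (Or.inr h4) with h5 | h5
          · exact Or.inl h5
          · subst h5; exact absurd hi hy
        · exact Or.inr (Or.inl h4)
        · exact Or.inr (Or.inr h4)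
      have hyz : y ∈ T z := by
        rcases (hmem y).2 (Or.inr rfl) with h5 | h5 <;> rw [hz, h5] <;> simp
      have hsub : T w1 ⊆ insert y (T w2) := by
        intro i hi
        have h4 := sub1 hi
        simp only [mem_insert_iff, mem_singleton_iff] at h4 ⊢
        rcases h4 with h4 | h4 | h4 | h4
        · rcases (hmem i).1 (Or.inl h4) with h5 | h5
          · right; rw [h5]; exact hx
          · left; exact h5
        · rcases (hmem i).1 (Or.inr h4) with h5 | h5
          · right; rw [h5]; exact hx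
          · left; exact h5
        · right; rw [h4]; exact s2 (by simp)
        · right; rw [h4]; exact s2 (by simp)
      rcases h.lemmaX (u := w2) (p := w1) (v := z) (t := y) dist12 h3 hsub
        dw1z (h.sub z hyz) with h5 | h5
      · exact n2 h5
      · exact n3 h5
    by_cases ha : a ∈ T w2
    · by_cases hb : b ∈ T w2
      · exact ⟨ha, hb⟩
      · exact absurd (key a b rfl ha hb) id
    · rcases hQ with hQ | hQ
      · exact absurd (sQ hQ) ha
      · exact absurd (key b a (pair_comm b a) (sQ hQ) ha) id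
  -- both colours of `{e, f}` are at `w1`
  have hef1 : e ∈ T w1 ∧ f ∈ T w1 := by
    have key : ∀ x y : Fin 6, ({x, y} : Set (Fin 6)) = {e, f} → x ∈ T w1 → y ∉ T w1 → False := by
      intro x y hxy hx hy
      have hmem : ∀ i, (i = e ∨ i = f) ↔ (i = x ∨ i = y) := by
        intro i
        have := Set.ext_iff.1 hxy i
        simp only [mem_insert_iff, mem_singleton_iff] at this
        exact this.symm
      have h3 : (T w1).ncard ≤ 3 := by
        refine ncard_le_three_of (a := a) (b := b) (c := x) fun i hi => ?_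
        have h4 := sub1 hi
        simp only [mem_insert_iff, mem_singleton_iff] at h4 ⊢
        rcases h4 with h4 | h4 | h4 | h4
        · exact Or.inl h4
        · exact Or.inr (Or.inl h4)
        · rcases (hmem i).1 (Or.inl h4) with h5 | h5
          · exact Or.inr (Or.inr h5)
          · subst h5; exact absurd hi hy
        · rcases (hmem i).1 (Or.inr h4) with h5 | h5
          · exact Or.inr (Or.inr h5)
          · subst h5; exact absurd hi hy
      have hyp : y ∈ T p := by
        rcases (hmem y).2 (Or.inr rfl) with h5 | h5 <;> rw [hp, h5] <;> simp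
      have hsub : T w2 ⊆ insert y (T w1) := by
        intro i hi
        have h4 := sub2 hi
        simp only [mem_insert_iff, mem_singleton_iff] at h4 ⊢
        rcases h4 with h4 | h4 | h4 | h4
        · right; rw [h4]; exact s1 (by simp)
        · right; rw [h4]; exact s1 (by simp)
        · rcases (hmem i).1 (Or.inl h4) with h5 | h5
          · right; rw [h5]; exact hx
          · left; exact h5
        · rcases (hmem i).1 (Or.inr h4) with h5 | h5
          · right; rw [h5]; exact hx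
          · left; exact h5
      rcases h.lemmaX (u := w1) (p := w2) (v := p) (t := y) (by rw [dist_comm]; exact dist12) h3
        hsub dw2p (h.sub p hyp) with h5 | h5
      · exact n4 h5
      · exact n5 h5
    by_cases ha : e ∈ T w1
    · by_cases hb : f ∈ T w1
      · exact ⟨ha, hb⟩
      · exact absurd (key e f rfl ha hb) id
    · rcases hP with hP | hP
      · exact absurd (sP hP) ha
      · exact absurd (key f e (pair_comm f e) (sP hP) ha) id
  have T1 : T w1 = {a, b, e, f} := by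
    refine Subset.antisymm sub1 ?_
    rintro i (rfl | rfl | rfl | h4)
    · exact s1 (by simp)
    · exact s1 (by simp)
    · exact hef1.1
    · rw [mem_singleton_iff] at h4; rw [h4]; exact hef1.2
  have T2 : T w2 = {a, b, e, f} := by
    refine Subset.antisymm sub2 ?_
    rintro i (rfl | rfl | rfl | h4)
    · exact hab2.1
    · exact hab2.2
    · exact s2 (by simp)
    · rw [mem_singleton_iff] at h4; rw [h4]; exact s2 (by simp)
  exact ⟨T1, T2⟩

/-- **The shape of a column swap** (343 #11804 (2), (3)), if `c`, `d` are missing at both ends: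
both ends are two-pair points with the palette `{a, b, e, f}`, pairs `ae | bf` or `af | be`. -/
theorem Col.shape (h : Irr U T) (hmin : Mn338 U T) {z p : ℂ} {a b c d e f : Fin 6}
    (hz : T z = {a, b, c, d}) (nd : [a, b, c, d, e, f].Nodup) (hzp : dist z p = 1)
    (hp : T p = {c, d, e, f}) {s : ℝ} (hC : Col T z p a b e f s)
    (hc1 : c ∉ T (pt z s)) (hd1 : d ∉ T (pt z s)) (hc2 : c ∉ T (pt p s)) (hd2 : d ∉ T (pt p s)) :
    (T (pt z s) = {a, b, e, f} ∧ T (pt p s) = {a, b, e, f}) ∧
      (DPt T (pt z s) a e b f ∨ DPt T (pt z s) a f b e) ∧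
      (DPt T (pt p s) a e b f ∨ DPt T (pt p s) a f b e) := by
  obtain ⟨T1, T2⟩ := Col.sets h hz nd hzp hp hC hc1 hd1 hc2 hd2
  have hnd := nd
  simp only [List.nodup_cons, List.mem_cons, List.not_mem_nil, or_false, not_or, List.nodup_nil,
    and_true, not_false_eq_true] at hnd
  obtain ⟨⟨ab, ac, ad, ae, af⟩, ⟨bc, bd, be, bf⟩, ⟨cd, ce, cf⟩, ⟨de, df⟩, ef⟩ := hnd
  set w1 := pt z s with hw1
  set w2 := pt p s with hw2
  have d12 : w2 - w1 = p - z := by rw [hw1, hw2]; unfold pt; ring
  have dist12 : dist w1 w2 = 1 := by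
    rw [dist_eq_norm, ← norm_neg, neg_sub, d12, ← dist_eq_norm, dist_comm]; exact hzp
  have dw1z : dist w1 z = 1 := dist_pt z s
  have dw2p : dist w2 p = 1 := dist_pt p s
  have n1 : w1 ≠ p := fun hh => hc1 (by rw [hh, hp]; simp)
  have n2 : z ≠ w2 := fun hh => hc2 (by rw [← hh, hz]; simp)
  have n3 : z + w2 ≠ 2 * w1 := fun hh => n1 (by linear_combination d12 - hh)
  have n4 : p ≠ w1 := fun hh => n1 hh.symm
  have n5 : p + w1 ≠ 2 * w2 := fun hh => n2 (by linear_combination d12 + hh)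
  have nd4 : [a, b, e, f].Nodup := by
    simp only [List.nodup_cons, List.mem_cons, List.not_mem_nil, or_false, not_or,
      List.nodup_nil, not_false_eq_true, and_true]
    exact ⟨⟨ab, ae, af⟩, ⟨be, bf⟩, ef⟩
  have nd4' : [e, f, a, b].Nodup := by
    simp only [List.nodup_cons, List.mem_cons, List.not_mem_nil, or_false, not_or,
      List.nodup_nil, not_false_eq_true, and_true]
    exact ⟨⟨ef, Ne.symm ae, Ne.symm be⟩, ⟨Ne.symm af, Ne.symm bf⟩, ab⟩
  refine ⟨⟨T1, T2⟩, ?_, ?_⟩
  · -- pairs of `w1`: `S(w1)` near `w2`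
    have T1' : T w1 = {e, f, a, b} := by
      rw [T1]; ext i; simp only [mem_insert_iff, mem_singleton_iff]; tauto
    have T2' : T w2 = {e, f, a, b} := by
      rw [T2]; ext i; simp only [mem_insert_iff, mem_singleton_iff]; tauto
    rcases pairs_of_side h hmin (z := p) (p := z) nd4' T2' T1' (by rw [dist_comm]; exact dist12)
      dw2p (by rw [hp]; simp) (by rw [hp]; simp) n4 n5 hC.z1 with h5 | h5
    · -- `ea | fb`
      left; exact h5.swap12.swap34
    · right; exact h5.swap.swap12.swap34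
  · exact pairs_of_side h hmin (z := z) (p := p) nd4 T1 T2 dist12 dw1z (by rw [hz]; simp)
      (by rw [hz]; simp) n2 n3 hC.p1

/-- a column swap without `c`, `d` at its ends makes `z` an E-neighbour of the two-pair point
`pt z s` -/
theorem Col.false_of_E (h : Irr U T) (hmin : Mn338 U T) {z p : ℂ} {a b c d e f : Fin 6}
    (hz : T z = {a, b, c, d}) (nd : [a, b, c, d, e, f].Nodup) (hzp : dist z p = 1)
    (hp : T p = {c, d, e, f}) {s : ℝ} (hC : Col T z p a b e f s)
    (hc1 : c ∉ T (pt z s)) (hd1 : d ∉ T (pt z s)) (hc2 : c ∉ T (pt p s)) (hd2 : d ∉ T (pt p s))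
    (hE : ∀ (w v : ℂ) (a b c d e f : Fin 6), DPt T w a b c d → [a, b, c, d, e, f].Nodup →
      dist v w = 1 → T v ≠ {a, c, e, f}) : False := by
  have hnd := nd
  simp only [List.nodup_cons, List.mem_cons, List.not_mem_nil, or_false, not_or, List.nodup_nil,
    and_true, not_false_eq_true] at hnd
  obtain ⟨⟨ab, ac, ad, ae, af⟩, ⟨bc, bd, be, bf⟩, ⟨cd, ce, cf⟩, ⟨de, df⟩, ef⟩ := hnd
  have hdz : dist z (pt z s) = 1 := by rw [dist_comm]; exact dist_pt z s
  rcases (Col.shape h hmin hz nd hzp hp hC hc1 hd1 hc2 hd2).2.1 with h1 | h1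
  · refine hE _ z a e b f c d h1 ?_ hdz hz
    simp only [List.nodup_cons, List.mem_cons, List.not_mem_nil, or_false, not_or,
      List.nodup_nil, not_false_eq_true, and_true]
    exact ⟨⟨ae, ab, af, ac, ad⟩, ⟨Ne.symm be, ef, Ne.symm ce, Ne.symm de⟩, ⟨bf, bc, bd⟩,
      ⟨Ne.symm cf, Ne.symm df⟩, cd⟩
  · refine hE _ z a f b e c d h1 ?_ hdz hz
    simp only [List.nodup_cons, List.mem_cons, List.not_mem_nil, or_false, not_or,
      List.nodup_nil, not_false_eq_true, and_true]
    exact ⟨⟨af, ab, ae, ac, ad⟩, ⟨Ne.symm bf, Ne.symm ef, Ne.symm cf, Ne.symm df⟩, ⟨be, bc, bd⟩,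
      ⟨Ne.symm ce, Ne.symm de⟩, cd⟩

end Vale.Agent.P032.H561
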